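import Vale.Agent.P150.Both

open Filter Topology

theorem Vale.Agent.Results.P150.HalfTheta.result (β : ℝ) (h0 : 0 ≤ β) (h : β < 1 / 2) :
    ∃ c C : ℝ, 0 < c ∧
      Tendsto (fun n : ℕ => Vale.Agent.P150.disorder n
        {g | ¬ (c ≤ Vale.Agent.P150.gap β g ∧ Vale.Agent.P150.gap β g ≤ 1 ∧
          ENNReal.ofReal (c * Real.log n) ≤ Vale.Agent.P150.tmix β g ∧
          Vale.Agent.P150.tmix β g ≤ ENNReal.ofReal (C * Real.log n))}) atTop (𝓝 0) :=
  Vale.Agent.P150.both_main h0 h
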